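import Vale.Agent.P280.H812.X3
import Vale.Agent.P280.H587.CorC

/-! P280, row G (X9), first part: the weights, and the tangent vectors at the points which tend to
the source. -/

open DirectSum Vale.Agent.P280.T Vale.Agent.P280.H93 Vale.Agent.P280.H812

namespace Vale.Agent.P280.H455

variable {R : Type} [CommRing R] [Algebra ℂ R] {𝒜 : ℕ × ℤ → Submodule ℂ R} [GradedAlgebra 𝒜]
  {p : R →ₐ[ℂ] ℂ} {μ a : ℤ} {f : R}

/-- The lowest part of `R` is `ℂ[f]`. -/
theorem low (H : Hom 𝒜 p μ a f) : (∀ (d : ℕ) (m : ℤ), ∀ h ∈ 𝒜 (d, m), h ≠ 0 → d • μ ≤ m) ∧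
    ∀ d : ℕ, ∀ h ∈ 𝒜 (d, d • μ), ∃ c : ℂ, h = c • f ^ d := by
  obtain ⟨h1, h2⟩ := H939.source_s2 H.man H.src
  exact ⟨h1, h2 f H.hf (by rw [H.pf]; exact one_ne_zero)⟩

theorem dvd_all (H : Hom 𝒜 p μ a f) {d : ℕ} {m : ℤ} {h : R} (hh : h ∈ 𝒜 (d, m)) (h0 : h ≠ 0) :
    a ∣ m - d • μ :=
  H587.dvd_of_fixed H.man H.src.1 H.src.2.1 (fun χ hχ => by rw [H.one χ hχ]) d m h hh h0

/-- The weights at the fixed points are `a`, `0`, `-a`. -/
theorem weights (H : Hom 𝒜 p μ a f) {x : R →ₐ[ℂ] ℂ} {ν χ : ℤ} (hx0 : ¬ IsVertex 𝒜 x)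
    (hx : IsFixed 𝒜 x ν) (hχ : TangentWeight 𝒜 x ν χ) : χ = a ∨ χ = 0 ∨ χ = -a := by
  have hpos := H.pos
  have h1 := H127.weight_bounds H939.theoremI_all H.man H.nef H.src H.pos hx0 hx hχ
  change -a ≤ χ ∧ χ ≤ a at h1
  have h2 : a ∣ χ := by
    obtain ⟨v, hv, hw, hc⟩ := id hχ
    obtain ⟨d, m, h, hh, hne⟩ := hc 0
    rw [zero_mul, zero_mul] at hne
    have h3 := dvd_all H hh (fun h0 => hne (by rw [h0, map_zero]))
    rw [hw d m h hh hne] at h3
    obtain ⟨g, hg, hgx⟩ := exists_deg_one_ne H.man.gen hx0 hx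
    have h4 := dvd_all H hg (fun h0 => hgx (by rw [h0, map_zero]))
    rw [one_smul] at h4
    have h5 : χ = (d • ν + χ - d • μ) - d • (ν - μ) := by
      rw [smul_sub]; ring
    rw [h5]
    exact dvd_sub h3 (by rw [nsmul_eq_mul]; exact Dvd.dvd.mul_left h4 _)
  obtain ⟨k, rfl⟩ := h2
  have h5 : -1 ≤ k := by
    by_contra h
    have : k ≤ -2 := by omega
    nlinarith
  have h6 : k ≤ 1 := by
    by_contra h
    have : 2 ≤ k := by omega
    nlinarith
  have h7 : k = 1 ∨ k = 0 ∨ k = -1 := by omega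
  rcases h7 with rfl | rfl | rfl
  · left; ring
  · right; left; ring
  · right; right; ring

/-- A fixed point without the tangent weight `a` has the maximal slope. -/
theorem isTop_of_not (H : Hom 𝒜 p μ a f) {x : R →ₐ[ℂ] ℂ} {ν : ℤ} (hx0 : ¬ IsVertex 𝒜 x)
    (hx : IsFixed 𝒜 x ν) (hno : ¬ TangentWeight 𝒜 x ν a) : IsTop 𝒜 ν := by
  intro d m h hh hne
  have hpos := H.pos
  have := H587.low_of_fixed H.man (l := -AddMonoidHom.id ℤ) hx0 hx (by
    intro χ hχ
    rcases weights H hx0 hx hχ with h1 | h1 | h1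
    · exact absurd (h1 ▸ hχ) hno
    · rw [h1]; simp
    · rw [h1]
      change 0 ≤ -(-a)
      omega) d m h hh hne
  change d • (-ν) ≤ -m at this
  rw [smul_neg] at this
  omega

/-- The minors of homogeneous fields on homogeneous elements are homogeneous. -/
theorem det_mem {k : ℕ} {χ : Fin k → ℤ} {D : Fin k → Derivation ℂ R R} {h : Fin k → R}
    (hD : ∀ i, IsHField 𝒜 (χ i) (D i)) (hh : ∀ j, SetLike.IsHomogeneousElem 𝒜 (h j)) :
    ∃ (d : ℕ) (m : ℤ), (dmat D h).det ∈ 𝒜 (d, m) := by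
  choose i hi using hh
  refine ⟨∑ j, (i j).1, ∑ j, (i j).2 - ∑ l, χ l, ?_⟩
  rw [Matrix.det_apply]
  refine Submodule.sum_mem _ fun σ _ => ?_
  rw [Units.smul_def]
  refine zsmul_mem ?_ _
  have h1 : ∏ j, dmat D h (σ j) j ∈ 𝒜 (∑ j, ((i j).1, (i j).2 - χ (σ j))) := by
    refine SetLike.prod_mem_graded 𝒜 _ _ fun j _ => ?_
    exact hD (σ j) (i j).1 (i j).2 (h j) (hi j)
  have h2 : ∑ j, ((i j).1, (i j).2 - χ (σ j)) =
      (∑ j, (i j).1, ∑ j, (i j).2 - ∑ l, χ l) := by
    refine Prod.ext ?_ ?_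
    · rw [Prod.fst_sum]
    · rw [Prod.snd_sum]
      simp only
      rw [Finset.sum_sub_distrib, Equiv.sum_comp σ χ]
  rw [h2] at h1
  exact h1

/-- The fields of weight `χ`, a linear space. -/
def hfields (𝒜 : ℕ × ℤ → Submodule ℂ R) (χ : ℤ) : Submodule ℂ (Derivation ℂ R R) where
  carrier := {D | IsHField 𝒜 χ D}
  add_mem' := by
    intro D D' h h' d m x hx
    rw [Derivation.add_apply]
    exact Submodule.add_mem _ (h d m x hx) (h' d m x hx)
  zero_mem' := by
    intro d m x _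
    rw [Derivation.zero_apply]
    exact Submodule.zero_mem _
  smul_mem' := by
    intro c D h d m x hx
    rw [Derivation.smul_apply]
    exact Submodule.smul_mem _ _ (h d m x hx)

omit [GradedAlgebra 𝒜] in
theorem mem_hfields {χ : ℤ} {D : Derivation ℂ R R} : D ∈ hfields 𝒜 χ ↔ IsHField 𝒜 χ D := Iff.rfl

/-- **The tangent vectors at the points which tend to the source** are values of fields of weight
`a`, up to multiples of the Euler vector. -/
theorem tangent_of_ne (H : Hom 𝒜 p μ a f) {E : Derivation ℂ R R}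
    (hE : ∀ d m, ∀ h ∈ 𝒜 (d, m), E h = (d : ℂ) • h) {z : R →ₐ[ℂ] ℂ} (hz : z f ≠ 0)
    {v : R →ₗ[ℂ] ℂ} (hv : IsTangent z v) :
    ∃ D : Derivation ℂ R R, IsHField 𝒜 a D ∧ ∃ c : ℂ, ∀ h, v h = z (D h) + c * z (E h) := by
  have hz0 : ¬ IsVertex 𝒜 z := fun hver => hz (hver 1 μ one_pos f H.hf)
  obtain ⟨N, hdim⟩ := exists_dim H.man
  obtain ⟨hfinp, hNp⟩ := hdim p H.src.1
  obtain ⟨hfinz, hNz⟩ := hdim z hz0
  have hE0 : IsHField 𝒜 0 E := by
    have := H587.isHField_euler hE 1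
    rwa [one_smul] at this
  let S : Set (R →ₗ[ℂ] ℂ) := {w | ∃ D : Derivation ℂ R R, (IsHField 𝒜 a D ∨ D = E) ∧
    w = valAt p D}
  have hspan : Submodule.span ℂ S = tangentSpace p := by
    refine le_antisymm (Submodule.span_le.2 ?_) fun v hv => ?_
    · rintro w ⟨D, -, rfl⟩
      exact isTangent_valAt p D
    · have h3 := H127.mem_span_weight H.man H.src.1 H.src.2.1 hv
      refine (Submodule.span_le.2 ?_) h3
      rintro u ⟨hu1, χ, hu2⟩
      by_cases hχ : TangentWeight 𝒜 p μ χ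
      · obtain rfl := H.one χ hχ
        obtain ⟨D, hD1, hD2⟩ := (theoremI_full H.man H.nef H.pos H.src H.src.1 H.src.2.1).2 χ rfl
          u hu1 hu2
        refine Submodule.subset_span ⟨D, Or.inl hD1, ?_⟩
        ext h
        exact (hD2 h).symm
      · obtain ⟨c, hc⟩ := H587.euler_of_not hu1 hu2 hχ hE
        have h4 : u = c • valAt p E := by
          ext h
          rw [hc h, LinearMap.smul_apply, valAt_apply, smul_eq_mul]
        rw [h4]
        exact Submodule.smul_mem _ _ (Submodule.subset_span ⟨E, Or.inr rfl, rfl⟩)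
  obtain ⟨b, hb, hli⟩ := exists_fin_family (tangentSpace p) S hspan hNp
  choose D hD hw using hb
  obtain ⟨h, hh, hdet⟩ := exists_det_ne b hli _ (span_homogeneous 𝒜)
  have hχ : ∀ i, ∃ χ, IsHField 𝒜 χ (D i) := by
    intro i
    rcases hD i with h1 | h1
    · exact ⟨a, h1⟩
    · exact ⟨0, by rw [h1]; exact hE0⟩
  choose χ hχ' using hχ
  obtain ⟨d, m, hr⟩ := det_mem hχ' hh
  have hpr : p (dmat D h).det ≠ 0 := by
    rw [AlgHom.map_det]
    have h2 : p.mapMatrix (dmat D h) = Matrix.of fun i j => b i (h j) := by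
      ext i j
      rw [AlgHom.mapMatrix_apply, Matrix.map_apply, dmat_apply, Matrix.of_apply, hw]
      rfl
    rw [h2]
    exact hdet
  have hm := H.src.2.1 d m _ hr hpr
  rw [hm] at hr
  obtain ⟨c, hc⟩ := (low H).2 d _ hr
  have hc0 : c ≠ 0 := by
    rintro rfl
    rw [hc, zero_smul, map_zero] at hpr
    exact hpr rfl
  have hzr : z (dmat D h).det ≠ 0 := by
    rw [hc, map_smul, map_pow, smul_eq_mul]
    exact mul_ne_zero hc0 (pow_ne_zero _ hz)
  -- the values at `z` are independent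
  have hliz : LinearIndependent ℂ (fun i => (⟨valAt z (D i), isTangent_valAt z (D i)⟩ :
      tangentSpace z)) := by
    rw [Fintype.linearIndependent_iff]
    intro c hc
    have h1 : ∀ j, ∑ i, c i * z (D i (h j)) = 0 := by
      intro j
      have h2 := congrArg (fun w : tangentSpace z => (w : R →ₗ[ℂ] ℂ) (h j)) hc
      simpa [Submodule.coe_sum, LinearMap.sum_apply, valAt_apply] using h2
    have h3 : Matrix.vecMul c (z.mapMatrix (dmat D h)) = 0 := by
      funext j
      exact h1 j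
    have h4 : (z.mapMatrix (dmat D h)).det ≠ 0 := by
      rw [← AlgHom.map_det]
      exact hzr
    have h5 := Matrix.eq_zero_of_vecMul_eq_zero h4 h3
    exact fun i => congrFun h5 i
  have htop := hliz.span_eq_top_of_card_eq_finrank' (by rw [Fintype.card_fin, hNz])
  have hmem : (⟨v, hv⟩ : tangentSpace z) ∈ Submodule.span ℂ (Set.range
      (fun i => (⟨valAt z (D i), isTangent_valAt z (D i)⟩ : tangentSpace z))) := by
    rw [htop]
    trivial
  obtain ⟨t, ht⟩ := (Submodule.mem_span_range_iff_exists_fun ℂ).1 hmem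
  have hP : ∑ i, t i • D i ∈ hfields 𝒜 a ⊔ Submodule.span ℂ {E} := by
    refine Submodule.sum_mem _ fun i _ => Submodule.smul_mem _ _ ?_
    rcases hD i with h1 | h1
    · exact Submodule.mem_sup_left h1
    · rw [h1]
      exact Submodule.mem_sup_right (Submodule.mem_span_singleton_self E)
  obtain ⟨D0, hD0, E0, hE0', hsum⟩ := Submodule.mem_sup.1 hP
  obtain ⟨c', rfl⟩ := Submodule.mem_span_singleton.1 hE0'
  refine ⟨D0, hD0, c', fun x => ?_⟩
  have h6 : (∑ i, t i • D i) x = ∑ i, t i • D i x := by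
    have h8 := congrFun (map_sum (Derivation.coeFnAddMonoidHom (R := ℂ) (A := R) (M := R))
      (fun i => t i • D i) Finset.univ) x
    rw [Finset.sum_apply] at h8
    exact h8
  have h7 := congrArg (fun w : tangentSpace z => (w : R →ₗ[ℂ] ℂ) x) ht
  have h9 : v x = z ((∑ i, t i • D i) x) := by
    rw [h6, map_sum]
    simpa [Submodule.coe_sum, LinearMap.sum_apply, valAt_apply] using h7.symm
  rw [h9, ← hsum, Derivation.add_apply, Derivation.smul_apply, map_add, map_smul, smul_eq_mul]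

end Vale.Agent.P280.H455
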