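import Vale.Agent.P280.H455.GenTan

/-! P280, row G (X9): homogeneity. -/

open DirectSum Vale.Agent.P280.T Vale.Agent.P280.H93 Vale.Agent.P280.H812

namespace Vale.Agent.P280.H455

section general
variable {R : Type} [CommRing R] [Algebra ℂ R] {s : ℕ}

/-- A derivation along `Y` which kills the kernel of `Y` comes from the polynomial ring. -/
theorem der_of_ker {S : Type} [CommRing S] [Algebra ℂ S] {Y : R →ₐ[ℂ] MvPolynomial (Fin s) ℂ}
    (ρ : MvPolynomial (Fin s) ℂ →ₐ[ℂ] S) {δ : R →ₗ[ℂ] S}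
    (hδ : ∀ x y, δ (x * y) = ρ (Y x) * δ y + ρ (Y y) * δ x) (hker : ∀ h, Y h = 0 → δ h = 0)
    {g : Fin s → R} (hg : ∀ i, Y (g i) = MvPolynomial.X i) (h : R) :
    δ h = ∑ i, δ (g i) * ρ (MvPolynomial.pderiv i (Y h)) := by
  have h1 : δ 1 = 0 := by
    have := hδ 1 1
    rw [mul_one, map_one Y, map_one ρ, one_mul] at this
    exact left_eq_add.1 this
  have hC : ∀ c : ℂ, δ (algebraMap ℂ R c) = 0 := by
    intro c
    rw [Algebra.algebraMap_eq_smul_one, map_smul, h1, smul_zero]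
  have key : ∀ (P : MvPolynomial (Fin s) ℂ) (h : R), Y h = P →
      δ h = ∑ i, δ (g i) * ρ (MvPolynomial.pderiv i P) := by
    intro P
    induction P using MvPolynomial.induction_on with
    | C c =>
      intro h hh
      have h2 : Y (h - algebraMap ℂ R c) = 0 := by
        rw [map_sub, hh, AlgHom.commutes, MvPolynomial.algebraMap_eq, sub_self]
      have h3 := hker _ h2
      rw [map_sub, hC, sub_zero] at h3
      rw [h3]
      symm
      apply Finset.sum_eq_zero
      intro i _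
      rw [MvPolynomial.pderiv_C, map_zero, mul_zero]
    | add P Q hP hQ =>
      intro h hh
      have hs : ∃ u, Y u = P := by
        refine ⟨MvPolynomial.aeval g P, ?_⟩
        have : (Y.comp (MvPolynomial.aeval g)) = AlgHom.id ℂ _ := by
          apply MvPolynomial.algHom_ext
          intro i
          rw [AlgHom.comp_apply, MvPolynomial.aeval_X, hg]
          rfl
        have h2 := DFunLike.congr_fun this P
        exact h2
      obtain ⟨u, hu⟩ := hs
      have h2 := hP u hu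
      have h3 := hQ (h - u) (by rw [map_sub, hh, hu, add_sub_cancel_left])
      have h4 : h = u + (h - u) := by ring
      rw [h4, map_add, h2, h3, ← Finset.sum_add_distrib]
      refine Finset.sum_congr rfl fun i _ => ?_
      rw [map_add, map_add]
      ring
    | mul_X P j hP =>
      intro h hh
      have hs : ∃ u, Y u = P := by
        refine ⟨MvPolynomial.aeval g P, ?_⟩
        have : (Y.comp (MvPolynomial.aeval g)) = AlgHom.id ℂ _ := by
          apply MvPolynomial.algHom_ext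
          intro i
          rw [AlgHom.comp_apply, MvPolynomial.aeval_X, hg]
          rfl
        have h2 := DFunLike.congr_fun this P
        exact h2
      obtain ⟨u, hu⟩ := hs
      have h2 := hP u hu
      have h3 := hker (h - u * g j) (by rw [map_sub, hh, map_mul, hu, hg, sub_self])
      rw [map_sub, sub_eq_zero] at h3
      rw [h3, hδ, hu, hg, h2, Finset.mul_sum]
      have h4 : ∀ i, δ (g i) * ρ (MvPolynomial.pderiv i (P * MvPolynomial.X j)) =
          ρ (MvPolynomial.X j) * (δ (g i) * ρ (MvPolynomial.pderiv i P)) +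
          (if i = j then ρ P * δ (g j) else 0) := by
        intro i
        rw [Derivation.leibniz, MvPolynomial.pderiv_X, map_add, smul_eq_mul, smul_eq_mul, map_mul,
          map_mul, mul_add]
        by_cases hij : i = j
        · subst hij
          rw [Pi.single_eq_same, if_pos rfl, map_one]
          ring
        · rw [Pi.single_eq_of_ne (Ne.symm hij), if_neg hij, map_zero]
          ring
      rw [Finset.sum_congr rfl fun i _ => h4 i, Finset.sum_add_distrib, Finset.sum_ite_eq',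
        if_pos (Finset.mem_univ j)]
      ring
  exact key _ h rfl

end general

variable {R : Type} [CommRing R] [Algebra ℂ R] {𝒜 : ℕ × ℤ → Submodule ℂ R} [GradedAlgebra 𝒜]
  {p : R →ₐ[ℂ] ℂ} {μ a : ℤ} {f : R}

/-- At a fixed point of maximal slope the weights are `d σ - k a`. -/
theorem exists_nat (H : Hom 𝒜 p μ a f) {σ : ℤ} (ht : IsTop 𝒜 σ) {q : R →ₐ[ℂ] ℂ}
    (hq0 : ¬ IsVertex 𝒜 q) (hq : IsFixed 𝒜 q σ) {d : ℕ} {m : ℤ} {h : R} (hh : h ∈ 𝒜 (d, m))
    (h0 : h ≠ 0) : ∃ k : ℕ, m + k * a = d • σ := by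
  obtain ⟨g, hg, hgx⟩ := exists_deg_one_ne H.man.gen hq0 hq
  have h4 := dvd_all H hg (fun h0 => hgx (by rw [h0, map_zero]))
  rw [one_smul] at h4
  have h3 := dvd_all H hh h0
  have h5 : a ∣ d • σ - m := by
    have h6 : d • σ - m = d • (σ - μ) - (m - d • μ) := by
      rw [smul_sub]; ring
    rw [h6]
    exact dvd_sub (by rw [nsmul_eq_mul]; exact Dvd.dvd.mul_left h4 _) h3
  obtain ⟨k, hk⟩ := h5
  have h7 := ht d m h hh h0
  have hpos := H.pos
  have hk0 : 0 ≤ k := by
    by_contra hneg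
    have : k ≤ -1 := by omega
    nlinarith
  refine ⟨k.toNat, ?_⟩
  rw [Int.toNat_of_nonneg hk0]
  linear_combination -hk

section top
variable {σ : ℤ} {q : R →ₐ[ℂ] ℂ} {s : ℕ} {Y : R →ₐ[ℂ] MvPolynomial (Fin s) ℂ}

/-- The point `q` is the origin. -/
theorem cc_eq (H : Hom 𝒜 p μ a f) (ht : IsTop 𝒜 σ) (hq0 : ¬ IsVertex 𝒜 q)
    (hq : IsFixed 𝒜 q σ) (hY : BB 𝒜 a σ q Y) (h : R) :
    MvPolynomial.aeval (0 : Fin s → ℂ) (Y h) = q h := by
  have : (MvPolynomial.aeval (0 : Fin s → ℂ)).comp Y = q := by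
    apply algHom_ext_graded 𝒜
    rintro ⟨d, m⟩ x hx
    rw [AlgHom.comp_apply]
    by_cases hx0 : x = 0
    · rw [hx0, map_zero, map_zero, map_zero]
    obtain ⟨k, hk⟩ := exists_nat H ht hq0 hq hx hx0
    by_cases hm : m = d • σ
    · subst hm
      rw [hY.zero d x hx, MvPolynomial.aeval_C]
      rfl
    · have h1 : q x = 0 := by
        by_contra hne
        exact hm (hq d m x hx hne)
      rw [h1]
      have h2 := hY.hom d m k x hx hk
      have hk0 : k ≠ 0 := by
        rintro rfl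
        apply hm
        rw [← hk, Nat.cast_zero, zero_mul, add_zero]
      rw [MvPolynomial.aeval_zero, MvPolynomial.constantCoeff_eq, h2.coeff_eq_zero (by
        rw [map_zero]
        exact Ne.symm hk0)]
      rfl
  exact DFunLike.congr_fun this h

omit [GradedAlgebra 𝒜] in
/-- The kernel of `Y` is killed by derivations which kill the elements of weight `d σ`. -/
theorem kills (ht : IsTop 𝒜 σ) (hY : BB 𝒜 a σ q Y) {S : Type} [CommRing S] [Algebra ℂ S]
    (ρ : MvPolynomial (Fin s) ℂ →ₐ[ℂ] S) {δ : R →ₗ[ℂ] S}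
    (hδ : ∀ x y, δ (x * y) = ρ (Y x) * δ y + ρ (Y y) * δ x)
    (h0 : ∀ d : ℕ, ∀ h ∈ 𝒜 (d, d • σ), δ h = 0) (h : R) (hh : Y h = 0) : δ h = 0 := by
  have h1 : δ 1 = 0 := by
    have := hδ 1 1
    rw [mul_one, map_one Y, map_one ρ, one_mul] at this
    exact left_eq_add.1 this
  have hC : ∀ c : ℂ, δ (algebraMap ℂ R c) = 0 := by
    intro c
    rw [Algebra.algebraMap_eq_smul_one, map_smul, h1, smul_zero]
  have key : ∀ x ∈ Ideal.span ({h | ∃ (d : ℕ) (m : ℤ), d • σ < m ∧ h ∈ 𝒜 (d, m)} ∪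
      {h | ∃ d : ℕ, ∃ h' ∈ 𝒜 (d, d • σ), h = h' - algebraMap ℂ R (q h')}),
      Y x = 0 ∧ δ x = 0 := by
    intro x hx
    refine Submodule.span_induction (p := fun x _ => Y x = 0 ∧ δ x = 0) ?_ ?_ ?_ ?_ hx
    · rintro x (⟨d, m, hm, hx⟩ | ⟨d, h', hh', rfl⟩)
      · have : x = 0 := by
          by_contra hne
          have := ht d m x hx hne
          omega
        rw [this]
        exact ⟨map_zero _, map_zero _⟩
      · refine ⟨?_, ?_⟩
        · rw [map_sub, hY.zero d h' hh', AlgHom.commutes, MvPolynomial.algebraMap_eq, sub_self]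
        · rw [map_sub, h0 d h' hh', hC, sub_zero]
    · exact ⟨map_zero _, map_zero _⟩
    · rintro x y _ _ ⟨hx1, hx2⟩ ⟨hy1, hy2⟩
      rw [map_add, map_add, hx1, hx2, hy1, hy2, add_zero, add_zero]
      exact ⟨rfl, rfl⟩
    · rintro r x _ ⟨hx1, hx2⟩
      rw [smul_eq_mul, map_mul, hδ, hx1, hx2, map_zero, mul_zero, mul_zero, zero_mul, add_zero]
      exact ⟨rfl, rfl⟩
  exact (key h (hY.ker h hh)).2

/-- Lifts of the coordinates, of weight `d σ - a`. -/
theorem exists_lifts (H : Hom 𝒜 p μ a f) (ht : IsTop 𝒜 σ) (hq0 : ¬ IsVertex 𝒜 q)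
    (hq : IsFixed 𝒜 q σ) (hY : BB 𝒜 a σ q Y) :
    ∃ g : Fin s → R, (∀ i, Y (g i) = MvPolynomial.X i) ∧
      ∀ D : Derivation ℂ R R, IsHField 𝒜 (-a) D → ∀ i, Y (D (g i)) =
        MvPolynomial.C (q (D (g i))) := by
  obtain ⟨π, hπ⟩ := H587.exists_linearMap 𝒜
    (fun i : ℕ × ℤ => if i.2 = i.1 • σ - a then (LinearMap.id : R →ₗ[ℂ] R) else 0)
  have h1 : ∀ h, Y (π h) = MvPolynomial.homogeneousComponent 1 (Y h) := by
    intro h
    have : Y.toLinearMap.comp π = (MvPolynomial.homogeneousComponent 1).comp Y.toLinearMap := by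
      apply linearMap_ext_graded 𝒜
      rintro ⟨d, m⟩ x hx
      change Y (π x) = MvPolynomial.homogeneousComponent 1 (Y x)
      rw [hπ (d, m) x hx]
      by_cases hx0 : x = 0
      · rw [hx0]
        simp
      obtain ⟨k, hk⟩ := exists_nat H ht hq0 hq hx hx0
      have h2 := hY.hom d m k x hx hk
      rw [MvPolynomial.homogeneousComponent_of_mem
        ((MvPolynomial.mem_homogeneousSubmodule _ _).2 h2)]
      have hpos := H.pos
      by_cases hm : m = d • σ - a
      · have hk1 : k = 1 := by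
          have h3 : (k : ℤ) * a = 1 * a := by
            rw [one_mul]
            linear_combination hk - hm
          exact_mod_cast mul_right_cancel₀ hpos.ne' h3
        simp only [hm, if_true, hk1]
        rfl
      · have hk1 : 1 ≠ k := by
          rintro rfl
          apply hm
          rw [← hk]
          push_cast
          ring
        simp only [hm, if_false, hk1]
        rw [LinearMap.zero_apply, map_zero]
    exact LinearMap.congr_fun this h
  choose g hg using fun i : Fin s => hY.surj (MvPolynomial.X i)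
  refine ⟨fun i => π (g i), fun i => ?_, fun D hD i => ?_⟩
  · rw [h1, hg]
    exact MvPolynomial.homogeneousComponent_of_mem
      ((MvPolynomial.mem_homogeneousSubmodule _ _).2 (MvPolynomial.isHomogeneous_X ℂ i)) |>.trans
      (if_pos rfl)
  · have : ∀ h, Y (D (π h)) = MvPolynomial.C (q (D (π h))) := by
      intro h
      have : Y.toLinearMap.comp (D.toLinearMap.comp π) =
          (Algebra.linearMap ℂ (MvPolynomial (Fin s) ℂ)).comp
            (q.toLinearMap.comp (D.toLinearMap.comp π)) := by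
        apply linearMap_ext_graded 𝒜
        rintro ⟨d, m⟩ x hx
        change Y (D (π x)) = MvPolynomial.C (q (D (π x)))
        rw [hπ (d, m) x hx]
        by_cases hm : m = d • σ - a
        · simp only [hm, if_true]
          have h2 := hD d m x hx
          rw [hm, sub_neg_eq_add, sub_add_cancel] at h2
          exact hY.zero d _ h2
        · simp only [hm, if_false]
          rw [LinearMap.zero_apply, map_zero, map_zero, map_zero, map_zero]
      exact LinearMap.congr_fun this h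
    exact this (g i)

/-- The vectors of weight `-a`. -/
theorem value_neg (H : Hom 𝒜 p μ a f) (ht : IsTop 𝒜 σ) (hq0 : ¬ IsVertex 𝒜 q)
    (hq : IsFixed 𝒜 q σ) (hY : BB 𝒜 a σ q Y) {g : Fin s → R}
    (hg : ∀ i, Y (g i) = MvPolynomial.X i) {v : R →ₗ[ℂ] ℂ} (hv : IsTangent q v)
    (hw : HasWeight 𝒜 σ (-a) v) (h : R) :
    v h = ∑ i, v (g i) * MvPolynomial.aeval (0 : Fin s → ℂ) (MvPolynomial.pderiv i (Y h)) := by
  have hpos := H.pos
  have hδ : ∀ x y, v (x * y) = MvPolynomial.aeval (0 : Fin s → ℂ) (Y x) * v y +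
      MvPolynomial.aeval (0 : Fin s → ℂ) (Y y) * v x := by
    intro x y
    rw [cc_eq H ht hq0 hq hY, cc_eq H ht hq0 hq hY]
    exact hv x y
  refine der_of_ker _ hδ (kills ht hY _ hδ ?_) hg h
  intro d x hx
  by_contra hne
  have := hw d _ x hx hne
  omega

omit [GradedAlgebra 𝒜] in
/-- The fields of weight `a` are constant in the coordinates. -/
theorem field_neg (ht : IsTop 𝒜 σ) (hpos : 0 < a) (hY : BB 𝒜 a σ q Y) {g : Fin s → R}
    (hg : ∀ i, Y (g i) = MvPolynomial.X i) {D : Derivation ℂ R R} (hD : IsHField 𝒜 (-a) D)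
    (hg' : ∀ i, Y (D (g i)) = MvPolynomial.C (q (D (g i)))) (h : R) :
    Y (D h) = der (fun i => q (D (g i))) (Y h) := by
  have hδ : ∀ x y, (Y.toLinearMap.comp D.toLinearMap) (x * y) =
      AlgHom.id ℂ _ (Y x) * (Y.toLinearMap.comp D.toLinearMap) y +
      AlgHom.id ℂ _ (Y y) * (Y.toLinearMap.comp D.toLinearMap) x := by
    intro x y
    change Y (D (x * y)) = Y x * Y (D y) + Y y * Y (D x)
    rw [Derivation.leibniz, map_add, smul_eq_mul, smul_eq_mul, map_mul, map_mul]
  have h1 := der_of_ker (AlgHom.id ℂ _) hδ (kills ht hY _ hδ ?_) hg h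
  · change Y (D h) = ∑ i, Y (D (g i)) * MvPolynomial.pderiv i (Y h) at h1
    rw [h1, der]
    refine Finset.sum_congr rfl fun i _ => ?_
    rw [hg', MvPolynomial.smul_eq_C_mul]
  · intro d x hx
    change Y (D x) = 0
    have h2 := hD d _ x hx
    have h3 : D x = 0 := by
      by_contra hne
      have := ht d _ _ h2 hne
      omega
    rw [h3, map_zero]

theorem der_sub (κ κ' : Fin s → ℂ) (P : MvPolynomial (Fin s) ℂ) :
    der (κ - κ') P = der κ P - der κ' P := by
  simp only [der, Pi.sub_apply, sub_smul, Finset.sum_sub_distrib]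

/-- All constant fields occur. -/
theorem exists_field (hC : RowC) (hD : RowD) (hF : RowF) (H : Hom 𝒜 p μ a f) (ht : IsTop 𝒜 σ)
    (hq0 : ¬ IsVertex 𝒜 q) (hq : IsFixed 𝒜 q σ) (hY : BB 𝒜 a σ q Y) (κ : Fin s → ℂ) :
    ∃ D : Derivation ℂ R R, IsHField 𝒜 (-a) D ∧ ∀ h, Y (D h) = der κ (Y h) := by
  obtain ⟨g, hg, hg'⟩ := exists_lifts H ht hq0 hq hY
  obtain ⟨hC1, hC2⟩ := hC R 𝒜 p μ a f H q σ hq0 hq s Y hY
  obtain ⟨ℓ, hℓ, hℓY⟩ := (hD R 𝒜 p μ a f H σ ht q hq0 hq s Y hY hC1 hC2).1 κ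
  obtain ⟨D, hDw, hDf⟩ := hF R 𝒜 p μ a f H ℓ hℓ
  have hD1 : IsHField 𝒜 (-a) D := by
    intro d m h hh
    rw [sub_neg_eq_add]
    exact hDw d m h hh
  have h1 := field_neg ht H.pos hY hg hD1 (hg' D hD1)
  have h2 : κ = fun i => q (D (g i)) := by
    by_contra hne
    apply hC2 (κ - fun i => q (D (g i))) (sub_ne_zero.2 hne)
    rw [der_sub, ← h1 f, hDf, hℓY, sub_self]
  refine ⟨D, hD1, fun h => ?_⟩
  rw [h1 h, ← h2]

/-- The value at `κ` of a linear form. -/
theorem eval_linear (κ : Fin s → ℂ) {P : MvPolynomial (Fin s) ℂ} (hP : P.IsHomogeneous 1) :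
    MvPolynomial.aeval κ P = MvPolynomial.aeval (0 : Fin s → ℂ) (der κ P) := by
  have h1 := hP.sum_X_mul_pderiv
  rw [one_smul] at h1
  have h2 := congrArg (MvPolynomial.aeval κ) h1
  rw [← h2, map_sum, der, map_sum]
  refine Finset.sum_congr rfl fun i _ => ?_
  have h3 : (MvPolynomial.pderiv i P).IsHomogeneous 0 := hP.pderiv
  have h4 : MvPolynomial.pderiv i P = MvPolynomial.C (MvPolynomial.coeff 0 (MvPolynomial.pderiv i P)) :=
    MvPolynomial.totalDegree_eq_zero_iff_eq_C.1 (Nat.le_zero.1 h3.totalDegree_le)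
  rw [map_mul, MvPolynomial.aeval_X, h4, map_smul, MvPolynomial.aeval_C, MvPolynomial.aeval_C]
  rfl

/-- A point which tends to the source. -/
theorem exists_eval_ne {P : MvPolynomial (Fin s) ℂ} (hP : P ≠ 0) :
    ∃ κ : Fin s → ℂ, MvPolynomial.aeval κ P ≠ 0 := by
  by_contra hcon
  push Not at hcon
  apply hP
  apply MvPolynomial.funext
  intro κ
  rw [map_zero]
  have := hcon κ
  rwa [MvPolynomial.aeval_eq_eval] at this

/-- The vectors of weight `-a` at a fixed point of maximal slope are values of fields. -/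
theorem ext_neg (hA : RowA) (hC : RowC) (hD : RowD) (hF : RowF) (H : Hom 𝒜 p μ a f)
    (ht : IsTop 𝒜 σ) (hq0 : ¬ IsVertex 𝒜 q) (hq : IsFixed 𝒜 q σ) {v : R →ₗ[ℂ] ℂ}
    (hv : IsTangent q v) (hw : HasWeight 𝒜 σ (-a) v) :
    ∃ D : Derivation ℂ R R, IsHField 𝒜 (-a) D ∧ ∀ h, q (D h) = v h := by
  obtain ⟨s, Y, hY⟩ := hA R 𝒜 p μ a f H q σ hq0 hq
  obtain ⟨g, hg, -⟩ := exists_lifts H ht hq0 hq hY
  obtain ⟨D, hD1, hD2⟩ := exists_field hC hD hF H ht hq0 hq hY (fun i => v (g i))
  refine ⟨D, hD1, fun h => ?_⟩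
  rw [value_neg H ht hq0 hq hY hg hv hw h, ← cc_eq H ht hq0 hq hY, hD2, der, map_sum]
  refine Finset.sum_congr rfl fun i _ => ?_
  rw [map_smul, smul_eq_mul]

/-- The vectors of weight `0` at a fixed point of maximal slope are values of fields. -/
theorem ext_zero (hA : RowA) (hC : RowC) (hD : RowD) (hF : RowF) (H : Hom 𝒜 p μ a f)
    (ht : IsTop 𝒜 σ) (hq0 : ¬ IsVertex 𝒜 q) (hq : IsFixed 𝒜 q σ) {v : R →ₗ[ℂ] ℂ}
    (hv : IsTangent q v) (hw : HasWeight 𝒜 σ 0 v) :
    ∃ D : Derivation ℂ R R, IsHField 𝒜 0 D ∧ ∀ h, q (D h) = v h := by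
  have hpos := H.pos
  obtain ⟨s, Y, hY⟩ := hA R 𝒜 p μ a f H q σ hq0 hq
  obtain ⟨κ, hκ⟩ := exists_eval_ne (hC R 𝒜 p μ a f H q σ hq0 hq s Y hY).1
  obtain ⟨D₁, hD1, hD1'⟩ := exists_field hC hD hF H ht hq0 hq hY κ
  obtain ⟨E, hE⟩ := H587.exists_euler 𝒜
  let z : R →ₐ[ℂ] ℂ := (MvPolynomial.aeval κ).comp Y
  have hzf : z f ≠ 0 := hκ
  have hα : H644.Supp 𝒜 z (H644.rel μ) := by
    rintro ⟨d, m⟩ h hh hne
    have h1 := (low H).1 d m h hh (fun h0 => hne (by rw [h0, map_zero]))
    rw [H644.slope_apply]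
    change 0 ≤ m - μ * (d : ℤ)
    rw [nsmul_eq_mul, mul_comm] at h1
    omega
  have hβ : H644.Supp 𝒜 z (-H644.rel σ) := by
    rintro ⟨d, m⟩ h hh hne
    have h1 := ht d m h hh (fun h0 => hne (by rw [h0, map_zero]))
    rw [AddMonoidHom.neg_apply, H644.slope_apply]
    change 0 ≤ -(m - σ * (d : ℤ))
    rw [nsmul_eq_mul, mul_comm] at h1
    omega
  have hz0 : ∀ d : ℕ, ∀ h ∈ 𝒜 (d, d • σ), z h = q h := by
    intro d h hh
    change MvPolynomial.aeval κ (Y h) = q h
    rw [hY.zero d h hh, MvPolynomial.aeval_C]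
    rfl
  have hlim : H644.lim 𝒜 hβ = q := by
    apply algHom_ext_graded 𝒜
    rintro ⟨d, m⟩ h hh
    rw [H644.lim_mem 𝒜 hβ hh, AddMonoidHom.neg_apply, H644.slope_apply]
    change (if -(m - σ * (d : ℤ)) = 0 then z h else 0) = q h
    by_cases hm : m = d • σ
    · subst hm
      rw [if_pos (by rw [nsmul_eq_mul]; ring), hz0 d h hh]
    · rw [if_neg (by rw [nsmul_eq_mul, mul_comm] at hm; omega)]
      by_contra hne
      exact hm (hq d m h hh (Ne.symm hne))
  have hμσ : μ ≤ σ := by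
    have := ht 1 μ f H.hf (fun h0 => hzf (by rw [h0, map_zero]))
    rwa [one_smul] at this
  obtain ⟨g, hg, hgq⟩ := exists_deg_one_ne H.man.gen hq0 hq
  obtain ⟨c, hc1, -, hc3⟩ := H644.exists_lift 𝒜 (H644.freeCurves H.nef) hμσ hα hβ
    ⟨(1, μ), one_pos, by rw [H644.slope_apply]; change μ - μ * ((1 : ℕ) : ℤ) = 0; simp,
      f, H.hf, hzf⟩
    ⟨(1, σ), one_pos, by rw [H644.slope_apply]; change σ - σ * ((1 : ℕ) : ℤ) = 0; simp,
      g, hg, by rw [hz0 1 g (by rwa [one_smul])]; exact hgq⟩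
    (w := 0) (v := v) (by rw [hlim]; exact hv) (H644.hasWt_iff.2 hw)
  obtain ⟨D₂, hD2, t, hD2'⟩ := tangent_of_ne H hE hzf (v := c) hc1
  have hfield : IsHField 𝒜 0 (⁅D₁, D₂⁆ + t • E) := by
    intro d m h hh
    rw [Derivation.add_apply]
    refine Submodule.add_mem _ ?_ (H587.isHField_euler hE t d m h hh)
    have := hD1.lie hD2 d m h hh
    rwa [neg_add_cancel] at this
  refine ⟨⁅D₁, D₂⁆ + t • E, hfield, ?_⟩
  have key : q.toLinearMap.comp (⁅D₁, D₂⁆ + t • E).toLinearMap = v := by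
    apply linearMap_ext_graded 𝒜
    rintro ⟨d, m⟩ h hh
    change q ((⁅D₁, D₂⁆ + t • E) h) = v h
    by_cases hm : m = d • σ
    · subst hm
      have h1 : c h = v h := hc3 (d, d • σ) h hh (by
        change d • σ = σ * (d : ℤ) + 0
        rw [nsmul_eq_mul]; ring)
      have h2 : D₁ h = 0 := by
        by_contra hne
        have h3 := hD1 d _ h hh
        have := ht d _ _ h3 hne
        omega
      have h4 : z (D₂ h) = q (D₁ (D₂ h)) := by
        have h5 := hD2 d _ h hh
        have h6 : (Y (D₂ h)).IsHomogeneous 1 := hY.hom d _ 1 _ h5 (by push_cast; ring)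
        change MvPolynomial.aeval κ (Y (D₂ h)) = _
        rw [eval_linear κ h6, ← hD1', cc_eq H ht hq0 hq hY]
      have h7 : z (E h) = q (E h) := by
        rw [hE d _ h hh, map_smul, map_smul, hz0 d h hh]
      rw [Derivation.add_apply, Derivation.smul_apply, Derivation.commutator_apply, h2, map_zero,
        sub_zero, map_add, map_smul, smul_eq_mul, ← h4, ← h7, ← h1, hD2']
    · have h1 : v h = 0 := by
        by_contra hne
        exact hm (by simpa using hw d m h hh hne)
      rw [h1]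
      by_contra hne
      have h2 := hfield d m h hh
      rw [sub_zero] at h2
      exact hm (hq d m _ h2 hne)
  exact fun h => LinearMap.congr_fun key h

end top

/-- **Row G.** -/
theorem rowG (hA : RowA) (hC : RowC) (hD : RowD) (hF : RowF) : RowG := by
  intro R _ _ 𝒜 _ p μ a f H
  have hpos := H.pos
  obtain ⟨E, hE⟩ := H587.exists_euler 𝒜
  obtain ⟨N, hdim⟩ := exists_dim H.man
  -- no zero of the minors
  have hJ : ∀ z : R →ₐ[ℂ] ℂ, ¬ IsVertex 𝒜 z → ∃ r ∈ minorIdeal 𝒜 N, z r ≠ 0 := by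
    intro z hz
    by_contra hcon
    push Not at hcon
    have hhom : ∀ x ∈ minorIdeal 𝒜 N, ∀ i, ((decompose 𝒜 x) i : R) ∈ minorIdeal 𝒜 N :=
      fun x hx i => minorIdeal_isHomogeneous N i hx
    obtain ⟨γ, x, hx0, hxJ, hx1, hx2, -⟩ :=
      exists_lowest H.man (-AddMonoidHom.id ℤ) hhom ⟨z, hcon, hz⟩
    have hx : IsFixed 𝒜 x (-γ) := by
      intro d m h hh hne
      have := hx1 d m h hh hne
      change -m = d • γ at this
      rw [smul_neg]
      omega
    by_cases hTa : TangentWeight 𝒜 x (-γ) a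
    · obtain ⟨v, hv, hvw, hc⟩ := id hTa
      obtain ⟨D, hD1, hD2⟩ := (theoremI_full H.man H.nef H.pos H.src hx0 hx).2 a rfl v hv hvw
      obtain ⟨d, m, h, hh, hne⟩ := hc 0
      rw [zero_mul, zero_mul] at hne
      have hm := hvw d m h hh hne
      have hrad : h ∈ (minorIdeal 𝒜 N).radical := by
        by_contra hnr
        have h3 := hx2 d m h hh hnr
        change d • γ ≤ -m at h3
        rw [smul_neg] at hm
        omega
      have h3 := eq_zero_of_radical (minorIdeal 𝒜 N) D (fun r hr => minorIdeal_stable hD1 hr) x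
        hxJ hrad
      rw [hD2 h] at h3
      exact hne h3
    · have ht := isTop_of_not H hx0 hx hTa
      obtain ⟨hfinx, hNx⟩ := hdim x hx0
      obtain ⟨r, hr, hxr⟩ := exists_minor (𝒜 := 𝒜) hfinx hNx (by
        intro v hv
        have h3 := H127.mem_span_weight H.man hx0 hx hv
        refine (Submodule.span_le.2 ?_) h3
        rintro u ⟨hu1, χ, hu2⟩
        apply Submodule.subset_span
        by_cases hχ : TangentWeight 𝒜 x (-γ) χ
        · rcases weights H hx0 hx hχ with rfl | rfl | rfl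
          · exact absurd hχ hTa
          · obtain ⟨D, hD1, hD2⟩ := ext_zero hA hC hD hF H ht hx0 hx hu1 hu2
            exact ⟨0, D, hD1, hD2⟩
          · obtain ⟨D, hD1, hD2⟩ := ext_neg hA hC hD hF H ht hx0 hx hu1 hu2
            exact ⟨-a, D, hD1, hD2⟩
        · obtain ⟨c, hc⟩ := H587.euler_of_not hu1 hu2 hχ hE
          refine ⟨0, c • E, H587.isHField_euler hE c, fun h => ?_⟩
          rw [hc h, Derivation.smul_apply, map_smul, smul_eq_mul])
      exact hxr (hxJ r hr)
  intro q hq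
  obtain ⟨r, hr, hqr⟩ := hJ q hq
  obtain ⟨hfinq, hNq⟩ := hdim q hq
  exact fun v hv => fields_of_minor hfinq hNq.le hr hqr hv

end Vale.Agent.P280.H455
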