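import Vale.Agent.P280.H127.EdgeB

/-! P280, X4: the corollaries of Theorem III. -/

open DirectSum Vale.Agent.P280.T Vale.Agent.P280.H93 Vale.Agent.P280.H127

namespace Vale.Agent.P280.H455

variable {M : Type} [AddCommGroup M] [DecidableEq M] {R : Type} [CommRing R] [Algebra ℂ R]
  {𝒜 : ℕ × M → Submodule ℂ R} [GradedAlgebra 𝒜] {p : R →ₐ[ℂ] ℂ} {μ : M} {f : R}

/-- If the weight vectors at `p` are values of fields, all tangent vectors are. -/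
theorem all_fields (hX : IsTorusManifold 𝒜) (hp0 : ¬ IsVertex 𝒜 p) (hp : IsFixed 𝒜 p μ)
    (h1 : ∀ χ, TangentWeight 𝒜 p μ χ → Liftable 𝒜 χ) {v : R →ₗ[ℂ] ℂ} (hv : IsTangent p v) :
    ∃ D : Derivation ℂ R R, IsField 𝒜 D ∧ ∀ h, p (D h) = v h := by
  obtain ⟨E, hE⟩ := H587.exists_euler 𝒜
  have h3 := H127.mem_span_weight hX hp0 hp hv
  refine Submodule.span_induction (p := fun v _ => ∃ D : Derivation ℂ R R, IsField 𝒜 D ∧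
    ∀ h, p (D h) = v h) ?_ ?_ ?_ ?_ h3
  · rintro u ⟨hu1, χ, hu2⟩
    by_cases hχ : TangentWeight 𝒜 p μ χ
    · obtain ⟨D, hD1, hD2⟩ := h1 χ hχ p μ hp0 hp hχ u hu1 hu2
      have hD : IsHField 𝒜 χ D := hD1
      exact ⟨D, hD.isField, hD2⟩
    · obtain ⟨c, hc⟩ := H587.euler_of_not hu1 hu2 hχ hE
      refine ⟨c • E, (H587.isHField_euler hE c).isField, fun h => ?_⟩
      rw [hc h, Derivation.smul_apply, map_smul, smul_eq_mul]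
  · refine ⟨0, fun d m h _ => ?_, fun h => ?_⟩
    · rw [Derivation.zero_apply]
      exact Submodule.zero_mem _
    · rw [Derivation.zero_apply, map_zero, LinearMap.zero_apply]
  · rintro u u' _ _ ⟨D, hD1, hD2⟩ ⟨D', hD1', hD2'⟩
    refine ⟨D + D', IsField.add hD1 hD1', fun h => ?_⟩
    rw [Derivation.add_apply, map_add, hD2, hD2', LinearMap.add_apply]
  · rintro c u _ ⟨D, hD1, hD2⟩
    refine ⟨c • D, IsField.smul c hD1, fun h => ?_⟩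
    rw [Derivation.smul_apply, map_smul, hD2, LinearMap.smul_apply]

/-- A nonzero tangent vector of nonzero weight gives a tangent weight. -/
theorem weight_of_ne (hp : IsFixed 𝒜 p μ) {χ : M} (hχ : χ ≠ 0) {v : R →ₗ[ℂ] ℂ}
    (hv : IsTangent p v) (hw : HasWeight 𝒜 μ χ v) (hne : v ≠ 0) : TangentWeight 𝒜 p μ χ := by
  have : ∃ i, ∃ h ∈ 𝒜 i, v h ≠ 0 := by
    by_contra hcon
    push Not at hcon
    apply hne
    apply linearMap_ext_graded 𝒜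
    intro i x hx
    rw [hcon i x hx, LinearMap.zero_apply]
  obtain ⟨⟨d, m⟩, h, hh, hvh⟩ := this
  exact H587.tangentWeight_of_ne hp hχ hv hw d m hh hvh

theorem exists_one (hX : IsTorusManifold 𝒜) (hp0 : ¬ IsVertex 𝒜 p) (hp : IsFixed 𝒜 p μ) :
    ∃ f ∈ 𝒜 (1, μ), p f = 1 := by
  obtain ⟨g, hg, hgp⟩ := exists_deg_one_ne hX.gen hp0 hp
  refine ⟨(p g)⁻¹ • g, Submodule.smul_mem _ _ hg, ?_⟩
  rw [map_smul, smul_eq_mul, inv_mul_cancel₀ hgp]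

/-- The common form of the corollaries, over Theorem III (`t3`) and the curve argument (`t4`). -/
theorem cor_lift_of (hX : IsTorusManifold 𝒜) {l : M →+ ℤ} {a : ℤ} (hs : IsSource 𝒜 l p μ a)
    (t3 : ∀ f ∈ 𝒜 (1, μ), p f = 1 →
      (∀ v, IsTangent p v → ∃ D : Derivation ℂ R R, IsField 𝒜 D ∧ ∀ h, p (D h) = v h) →
      (∀ (v : R →ₗ[ℂ] ℂ) (χ : M), IsTangent p v → HasWeight 𝒜 μ χ v → χ ≠ 0 → v ≠ 0 →
        ∃ D : Derivation ℂ R R, (∀ d m, ∀ h ∈ 𝒜 (d, m), D h ∈ 𝒜 (d, m + χ)) ∧ v (D f) ≠ 0) →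
      IsHomogeneousManifold 𝒜 ∧ IsTransitive 𝒜)
    (t4 : ∀ f ∈ 𝒜 (1, μ), p f = 1 → ∀ χ : M, 0 < l χ → ∀ v : R →ₗ[ℂ] ℂ, IsTangent p v →
      HasWeight 𝒜 μ χ v → v ≠ 0 → ∀ e : Derivation ℂ R R,
      (∀ d m, ∀ h ∈ 𝒜 (d, m), e h ∈ 𝒜 (d, m - χ)) → (∀ h, p (e h) = v h) →
      Liftable 𝒜 (-χ) → (∀ (x : R →ₐ[ℂ] ℂ) (ν : M) (w : ℕ), 2 ≤ w → ¬ IsVertex 𝒜 x →
        IsFixed 𝒜 x ν → ¬ TangentWeight 𝒜 x ν (-(w • χ))) →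
      ∃ D : Derivation ℂ R R, (∀ d m, ∀ h ∈ 𝒜 (d, m), D h ∈ 𝒜 (d, m + χ)) ∧ v (D f) ≠ 0)
    (h : ∀ χ, TangentWeight 𝒜 p μ χ → Liftable 𝒜 χ ∧ Liftable 𝒜 (-χ) ∧
      ∀ (x : R →ₐ[ℂ] ℂ) (ν : M) (w : ℕ), 2 ≤ w → ¬ IsVertex 𝒜 x → IsFixed 𝒜 x ν →
        ¬ TangentWeight 𝒜 x ν (-(w • χ))) :
    IsHomogeneousManifold 𝒜 ∧ IsTransitive 𝒜 := by
  obtain ⟨f, hf, pf⟩ := exists_one hX hs.1 hs.2.1
  refine t3 f hf pf (fun v hv => all_fields hX hs.1 hs.2.1 (fun χ hχ => (h χ hχ).1) hv) ?_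
  intro v χ hv hw hχ0 hne
  have hχ := weight_of_ne hs.2.1 hχ0 hv hw hne
  obtain ⟨h1, h2, h3⟩ := h χ hχ
  obtain ⟨e, he1, he2⟩ := h1 p μ hs.1 hs.2.1 hχ v hv hw
  exact t4 f hf pf χ (hs.2.2 χ hχ).1 v hv hw hne e he1 he2 h2 h3

/-- The negative of an extremal weight has no proper multiple among the tangent weights. -/
theorem no_multiple (hX : IsTorusManifold 𝒜) (hN : NefOnRationalCurves 𝒜) {χ : M}
    (hχ : TangentWeight 𝒜 p μ χ) (hp0 : ¬ IsVertex 𝒜 p) (he : IsExtremal 𝒜 (-χ))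
    (x : R →ₐ[ℂ] ℂ) (ν : M) (w : ℕ) (hw : 2 ≤ w) (hx0 : ¬ IsVertex 𝒜 x) (hx : IsFixed 𝒜 x ν) :
    ¬ TangentWeight 𝒜 x ν (-(w • χ)) := by
  intro hω
  obtain ⟨l, q, ξ, hs⟩ := he
  have hpos := H587.pos_of_isSource hX hs hp0 hχ
  have h1 := (H127.weight_bounds H939.theoremI_all hX hN hs hpos hx0 hx hω).2
  rw [map_neg, map_nsmul, map_neg, nsmul_eq_mul] at h1
  rw [map_neg] at hpos
  have h2 : (2 : ℤ) ≤ w := by exact_mod_cast hw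
  nlinarith

/-- **Corollary 2'.** At one isolated source all the tangent weights and their negatives are
extremal. -/
theorem cor2_of (hX : IsTorusManifold 𝒜) (hN : NefOnRationalCurves 𝒜) {l : M →+ ℤ} {a : ℤ}
    (hs : IsSource 𝒜 l p μ a)
    (t3 : ∀ f ∈ 𝒜 (1, μ), p f = 1 →
      (∀ v, IsTangent p v → ∃ D : Derivation ℂ R R, IsField 𝒜 D ∧ ∀ h, p (D h) = v h) →
      (∀ (v : R →ₗ[ℂ] ℂ) (χ : M), IsTangent p v → HasWeight 𝒜 μ χ v → χ ≠ 0 → v ≠ 0 →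
        ∃ D : Derivation ℂ R R, (∀ d m, ∀ h ∈ 𝒜 (d, m), D h ∈ 𝒜 (d, m + χ)) ∧ v (D f) ≠ 0) →
      IsHomogeneousManifold 𝒜 ∧ IsTransitive 𝒜)
    (t4 : ∀ f ∈ 𝒜 (1, μ), p f = 1 → ∀ χ : M, 0 < l χ → ∀ v : R →ₗ[ℂ] ℂ, IsTangent p v →
      HasWeight 𝒜 μ χ v → v ≠ 0 → ∀ e : Derivation ℂ R R,
      (∀ d m, ∀ h ∈ 𝒜 (d, m), e h ∈ 𝒜 (d, m - χ)) → (∀ h, p (e h) = v h) →
      Liftable 𝒜 (-χ) → (∀ (x : R →ₐ[ℂ] ℂ) (ν : M) (w : ℕ), 2 ≤ w → ¬ IsVertex 𝒜 x →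
        IsFixed 𝒜 x ν → ¬ TangentWeight 𝒜 x ν (-(w • χ))) →
      ∃ D : Derivation ℂ R R, (∀ d m, ∀ h ∈ 𝒜 (d, m), D h ∈ 𝒜 (d, m + χ)) ∧ v (D f) ≠ 0)
    (hext : ∀ χ, TangentWeight 𝒜 p μ χ → IsExtremal 𝒜 χ ∧ IsExtremal 𝒜 (-χ)) :
    IsHomogeneousManifold 𝒜 ∧ IsTransitive 𝒜 :=
  cor_lift_of hX hs t3 t4 fun χ hχ => ⟨liftable_of_isExtremal hX hN (hext χ hχ).1,
    liftable_of_isExtremal hX hN (hext χ hχ).2, no_multiple hX hN hχ hs.1 (hext χ hχ).2⟩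

end Vale.Agent.P280.H455
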