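import Vale.Agent.P280.H455.X4Cor
import Vale.Agent.P280.H587.ThmIIIFin
import Vale.Agent.P280.H127.Curve

/-! P280, X4: corollary 2'. -/

open DirectSum Vale.Agent.P280.T Vale.Agent.P280.H93 Vale.Agent.P280.H127

namespace Vale.Agent.P280.H455

variable {M : Type} [AddCommGroup M] [DecidableEq M] {R : Type} [CommRing R] [Algebra ℂ R]
  {𝒜 : ℕ × M → Submodule ℂ R} [GradedAlgebra 𝒜] {p : R →ₐ[ℂ] ℂ} {μ : M}

/-- The common form of the corollaries of Theorem III. -/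
theorem cor_lift (hX : IsTorusManifold 𝒜) {l : M →+ ℤ} {a : ℤ} (hs : IsSource 𝒜 l p μ a)
    (h : ∀ χ, TangentWeight 𝒜 p μ χ → Liftable 𝒜 χ ∧ Liftable 𝒜 (-χ) ∧
      ∀ (x : R →ₐ[ℂ] ℂ) (ν : M) (w : ℕ), 2 ≤ w → ¬ IsVertex 𝒜 x → IsFixed 𝒜 x ν →
        ¬ TangentWeight 𝒜 x ν (-(w • χ))) :
    IsHomogeneousManifold 𝒜 ∧ IsTransitive 𝒜 := by
  refine cor_lift_of hX hs ?_ ?_ h
  · intro f hf pf hi hii
    exact H587.theoremIII hX hs hf pf hi hii
  · intro f hf pf χ hl v hv hw hne e he hev hlift hno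
    exact H127.curve hX hs.2.1 hf pf hl hv hw hne he hev hlift hno

/-- **Corollary 2'.** At one isolated source of a one-parameter group all the tangent weights and
their negatives are extremal: `X` is homogeneous. -/
theorem cor2 (hX : IsTorusManifold 𝒜) (hN : NefOnRationalCurves 𝒜) {l : M →+ ℤ} {a : ℤ}
    (hs : IsSource 𝒜 l p μ a)
    (hext : ∀ χ, TangentWeight 𝒜 p μ χ → IsExtremal 𝒜 χ ∧ IsExtremal 𝒜 (-χ)) :
    IsHomogeneousManifold 𝒜 ∧ IsTransitive 𝒜 :=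
  cor_lift hX hs fun χ hχ => ⟨liftable_of_isExtremal hX hN (hext χ hχ).1,
    liftable_of_isExtremal hX hN (hext χ hχ).2, no_multiple hX hN hχ hs.1 (hext χ hχ).2⟩

end Vale.Agent.P280.H455
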